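import Vale.Agent.P329.GroupOne
import Vale.Agent.P329.PermHub

/-! Generalized star height at most one: groups with an abelian normal subgroup whose quotient
is an elementary abelian `p`-group, and permutation groups with a hub. -/

namespace Vale.Agent.Results.P329.AbelianByElem

open Vale.Agent.P329

/-- (1) Every language recognized by a finite group `G` having an abelian normal subgroup `A`
with `G/A` an elementary abelian `p`-group (`p` any prime) has generalized star height at
most one.  (2) If every letter acts on a finite linearly ordered set `X` by a permutation that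
is increasing on the points `x ≠ h` with image `≠ h` (for a fixed point `h` of `X`), then every
language recognized through this morphism into `Sym(X)` has generalized star height at most
one. -/
theorem result :
    (∀ (G : Type) [Group G] [Finite G] (A : Subgroup G) (p : ℕ), A.Normal →
      (∀ x ∈ A, ∀ y ∈ A, x * y = y * x) → p.Prime → (∀ g : G, g ^ p ∈ A) →
      (∀ g h : G, g * h * g⁻¹ * h⁻¹ ∈ A) →
      ∀ (α : Type) [Finite α] (σ : α → G) (S : Set G),
        GshLE 1 ({w : List α | (w.map σ).prod ∈ S} : Set (List α))) ∧
    (∀ (X : Type) [Finite X] [LinearOrder X] (h : X) (α : Type) [Finite α]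
      (σ : α → Equiv.Perm X),
      (∀ a x y, x ≠ h → y ≠ h → σ a x ≠ h → σ a y ≠ h → x < y → σ a x < σ a y) →
      ∀ S : Set (Equiv.Perm X),
        GshLE 1 ({w : List α | (w.map σ).prod ∈ S} : Set (List α))) := by
  constructor
  · intro G _ _ A p hAn hA hp hpow hcomm α _ σ S
    exact rec_of_abelian_by_elementary A hAn hA p hp hpow hcomm σ (fun g => g ∈ S)
  · intro X _ _ h α _ σ hmono S
    exact rec_of_perm_hub h σ hmono (fun g => g ∈ S)

end Vale.Agent.Results.P329.AbelianByElem
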