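import Vale.Agent.P329.Good
import Vale.Agent.P329.GoodClosure
import Vale.Agent.P329.GroupOne
import Vale.Agent.P329.ClassThree
import Vale.Agent.P329.PermHub

/-! Groups whose recognized languages have generalized star height at most one. -/

namespace Vale.Agent.Results.P329.GroupClasses

open Vale.Agent.P329

/-- The class of finite groups all of whose recognized languages have generalized star height
at most one contains (1) every group with an abelian normal subgroup whose quotient is an
elementary abelian `p`-group (any prime `p`), (2) every nilpotent group of class at most three,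
and is closed under (3) subgroups, (4) quotients, (5) direct products.  (6) If every letter acts
on a finite linearly ordered set `X` by a permutation that is increasing on the points `x ≠ h`
with image `≠ h` (for a fixed point `h` of `X`), then every language recognized through this
morphism into `Sym(X)` has generalized star height at most one. -/
theorem result :
    (∀ (G : Type) [Group G] [Finite G] (A : Subgroup G) (p : ℕ), A.Normal →
      (∀ x ∈ A, ∀ y ∈ A, x * y = y * x) → p.Prime → (∀ g : G, g ^ p ∈ A) →
      (∀ g h : G, g * h * g⁻¹ * h⁻¹ ∈ A) → Good G) ∧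
    (∀ (G : Type) [Group G] [Finite G], (⊤ : Subgroup G).lowerCentralSeries 3 = ⊥ → Good G) ∧
    (∀ (G : Type) [Group G] [Finite G] (H : Subgroup G), Good G → Good H) ∧
    (∀ (G : Type) [Group G] [Finite G] (N : Subgroup G) [N.Normal], Good G → Good (G ⧸ N)) ∧
    (∀ (G H : Type) [Group G] [Group H] [Finite G] [Finite H], Good G → Good H →
      Good (G × H)) ∧
    (∀ (X : Type) [Finite X] [LinearOrder X] (h : X) (α : Type) [Finite α]
      (σ : α → Equiv.Perm X),
      (∀ a x y, x ≠ h → y ≠ h → σ a x ≠ h → σ a y ≠ h → x < y → σ a x < σ a y) →
      ∀ S : Set (Equiv.Perm X),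
        GshLE 1 ({w : List α | (w.map σ).prod ∈ S} : Set (List α))) := by
  refine ⟨?_, ?_, ?_, ?_, ?_, ?_⟩
  · intro G _ _ A p hAn hA hp hpow hcomm α _ σ S
    exact rec_of_abelian_by_elementary A hAn hA p hp hpow hcomm σ (fun g => g ∈ S)
  · intro G _ _ h α _ σ S
    exact rec_of_classThree (G := G) h σ (fun g => g ∈ S)
  · intro G _ _ H hG
    exact Good.of_injective H.subtype H.subtype_injective hG
  · intro G _ _ N _ hG
    exact Good.of_surjective (QuotientGroup.mk' N) (QuotientGroup.mk'_surjective N) hG
  · intro G H _ _ _ _ hG hH
    exact hG.prod hH
  · intro X _ _ h α _ σ hmono S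
    exact rec_of_perm_hub h σ hmono (fun g => g ∈ S)

end Vale.Agent.Results.P329.GroupClasses
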