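import Vale.Agent.P329.Good
import Vale.Agent.P329.GoodClosure
import Vale.Agent.P329.GroupOne
import Vale.Agent.P329.ClassThree
import Vale.Agent.P329.PermHub
import Vale.Agent.P329L.FinalNE
import Vale.Agent.P329L.Fam2

/-! P329: a restriction on expressions of generalized star height one, and groups whose recognized
languages have generalized star height at most one. -/

namespace Vale.Agent.Results.P329.LowerBound

open Vale.Agent.P329 Vale.Agent.P329L

/-- (1) Let the images `g a` of the letters generate the finite group `G`, let `L` be a language whose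
syntactic congruence is contained in the kernel of the morphism `g` from words to `G`, and let `N`
be a nonabelian simple subgroup of `G`.  Every generalized regular expression `E` of star height at
most one for `L` contains a starred subexpression `P*` such that for EVERY letter `a` with `g a ∈ N`
of even order some power `a^t`, `t ≥ 1`, lies in `L(P)` and all `t` with `a^t ∈ L(P)` are divisible by
one number `d ≥ 1` such that the order of `g a` divides `d` and `N` is a quotient of a subgroup of the
symmetric group `S_d`.  (2) The hypothesis of (1) holds for all languages `{w : g(w) ∈ T}`, `T ⊆ G`, for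
which only the trivial normal subgroup `M` of `G` satisfies `T M ⊆ T`.  (3) For every `N` there is a
regular language over a two-letter alphabet such that every expression of star height at most one
for it contains a starred subexpression `P*` such that for every letter `a` some `a^t`, `t ≥ 1`, lies
in `L(P)` and all such `t` are divisible by one even number `d ≥ N`.  (4) to (8): the class of finite
groups all of whose recognized languages have generalized star height at most one contains the
groups with an abelian normal subgroup with elementary abelian quotient and the nilpotent groups of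
class at most three, and is closed under subgroups, quotients and direct products.  (9) Languages
recognized by permutations of a finite ordered set which are monotone outside a hub have generalized
star height at most one. -/
theorem result :
    (∀ (α G : Type) [Group G] [Finite G] (g : α → G), Subgroup.closure (Set.range g) = ⊤ →
      ∀ (N : Subgroup G) [IsSimpleGroup N], (∃ x y : N, x * y ≠ y * x) →
      ∀ E : GRE α, E.sh ≤ 1 →
        (∀ u v : List α, (∀ x y : List α, x ++ u ++ y ∈ E.lang ↔ x ++ v ++ y ∈ E.lang) →
          (u.map g).prod = (v.map g).prod) →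
        ∃ P ∈ starred E, ∀ a : α, g a ∈ N → Even (orderOf (g a)) →
          (∃ t, 0 < t ∧ List.replicate t a ∈ P.lang) ∧
          ∃ d : ℕ, 0 < d ∧ orderOf (g a) ∣ d ∧ (∀ t, List.replicate t a ∈ P.lang → d ∣ t) ∧
            ∃ (R : Subgroup (Equiv.Perm (Fin d))) (φ : R →* N), Function.Surjective φ) ∧
    (∀ (α G : Type) [Group G] [Finite G] (g : α → G), Subgroup.closure (Set.range g) = ⊤ →
      ∀ T : Set G, (∀ M : Subgroup G, M.Normal → (∀ x ∈ T, ∀ m ∈ M, x * m ∈ T) → M = ⊥) →
      ∀ u v : List α, (∀ x y : List α, ((x ++ u ++ y).map g).prod ∈ T ↔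
        ((x ++ v ++ y).map g).prod ∈ T) → (u.map g).prod = (v.map g).prod) ∧
    (∀ N : ℕ, ∃ L : Language (Fin 2), L.IsRegular ∧
      ∀ E : GRE (Fin 2), E.sh ≤ 1 → E.lang = L → ∃ P ∈ starred E, ∀ a : Fin 2,
        (∃ t, 0 < t ∧ List.replicate t a ∈ P.lang) ∧
        ∃ d : ℕ, N ≤ d ∧ 0 < d ∧ Even d ∧ ∀ t, List.replicate t a ∈ P.lang → d ∣ t) ∧
    (∀ (G : Type) [Group G] [Finite G] (A : Subgroup G) (p : ℕ), A.Normal →
      (∀ x ∈ A, ∀ y ∈ A, x * y = y * x) → p.Prime → (∀ g : G, g ^ p ∈ A) →
      (∀ g h : G, g * h * g⁻¹ * h⁻¹ ∈ A) → Good G) ∧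
    (∀ (G : Type) [Group G] [Finite G], (⊤ : Subgroup G).lowerCentralSeries 3 = ⊥ → Good G) ∧
    (∀ (G : Type) [Group G] [Finite G] (H : Subgroup G), Good G → Good H) ∧
    (∀ (G : Type) [Group G] [Finite G] (N : Subgroup G) [N.Normal], Good G → Good (G ⧸ N)) ∧
    (∀ (G H : Type) [Group G] [Group H] [Finite G] [Finite H], Good G → Good H →
      Good (G × H)) ∧
    (∀ (X : Type) [Finite X] [LinearOrder X] (h : X) (α : Type) [Finite α]
      (σ : α → Equiv.Perm X),
      (∀ a x y, x ≠ h → y ≠ h → σ a x ≠ h → σ a y ≠ h → x < y → σ a x < σ a y) →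
      ∀ S : Set (Equiv.Perm X),
        GshLE 1 ({w : List α | (w.map σ).prod ∈ S} : Set (List α))) := by
  refine ⟨?_, ?_, ?_, ?_, ?_, ?_, ?_, ?_, ?_⟩
  · intro α G _ _ g hgen N _ hnN E hsh hE
    exact mainNE g hgen N hnN E hsh hE
  · intro α G _ _ g hgen T hT u v huv
    exact synt_recLangNE g hgen T hT u v huv
  · exact fam2
  · intro G _ _ A p hAn hA hp hpow hcomm α _ σ S
    exact rec_of_abelian_by_elementary A hAn hA p hp hpow hcomm σ (fun g => g ∈ S)
  · intro G _ _ h α _ σ S
    exact rec_of_classThree (G := G) h σ (fun g => g ∈ S)
  · intro G _ _ H hG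
    exact Good.of_injective H.subtype H.subtype_injective hG
  · intro G _ _ N _ hG
    exact Good.of_surjective (QuotientGroup.mk' N) (QuotientGroup.mk'_surjective N) hG
  · intro G H _ _ _ _ hG hH
    exact hG.prod hH
  · intro X _ _ h α _ σ hmono S
    exact rec_of_perm_hub h σ hmono (fun g => g ∈ S)

end Vale.Agent.Results.P329.LowerBound
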